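import Vale.Agent.P088.R2.H760.JUN
import Vale.Agent.P088.R2.H169.BCC

/-!
# P088, row CC for pairs: two pairs, each metric near a constant metric

`rowCC : RowUN → RowLIN → RowCC`.
-/

open MeasureTheory Set Filter Topology
open scoped ContDiff Matrix

noncomputable section

namespace Vale.Agent.P088.PJ.H760

open Vale.Agent.P088.LR Vale.Agent.P088.LR.B Vale.Agent.P088.LR.U Vale.Agent.P088.LR.H158
open Vale.Agent.P088.HY.Bd (NrC CoG IsoOn isOpen_Om169 bdd_Om169 Om_empty169 Jm_id169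
  Cl_mono169 Cl_const169)
open Vale.Agent.P088.PJ.Bd

variable {n N : ℕ}

/-- If `{ρ > 0}` is empty then all pairs are isomorphic. -/
theorem rigJ_empty {ρ : V n → ℝ} (hρ : SDom ρ) (hne : ¬ (Om ρ).Nonempty) (g₁ g₂ : MF n)
    (A₁ A₂ : Cn n N) : RigJ ρ g₁ A₁ g₂ A₂ := by
  intro _
  have he : Om ρ = ∅ := Set.not_nonempty_iff_eq_empty.1 hne
  refine ⟨fun x => x, fun x => x, fun _ => 1, ⟨contDiff_id, contDiff_id, fun _ => rfl,
    fun _ => rfl, fun _ _ => rfl, fun _ => Iff.rfl, fun x => ?_, fun x hx => ?_⟩,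
    ⟨fun a b => contDiff_const, fun x _ => by simp, fun i x hx => ?_⟩, fun x hx => rfl⟩
  · rw [Jm_id169, Matrix.det_one]
    exact one_pos
  · exact absurd hx (Om_empty169 hρ hne x)
  · rw [he] at hx
    exact absurd hx (notMem_empty x)

/-- (CC) from (UN) and (LIN). -/
theorem rowCC : RowUN → RowLIN → RowCC := by
  intro hU hL n N hn hN ρ hρ B hB
  by_cases hne : (Om ρ).Nonempty
  · obtain ⟨k, ε₀, hε₀, h₀⟩ := hU n N hn hN ρ hρ B hB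
    obtain ⟨ε₁, hε₁, h₁⟩ := hL n N hn hN (Om ρ) (isOpen_Om169 hρ) (bdd_Om169 hρ) hne B (ε₀ / 2) hB
      (half_pos hε₀)
    refine ⟨k, min ε₁ (ε₀ / 2), lt_min hε₁ (half_pos hε₀), ?_⟩
    intro G₁ G₂ hG₁ hG₂ g₁ g₂ s₁ s₂ p₁ p₂ c₁ c₂ A₁ A₂ u₁ u₂ d₁ d₂ hSD
    have hz : ∀ {f : V n → ℝ} (_ : Cl k (min ε₁ (ε₀ / 2)) f) (x : V n), |f x| ≤ ε₁ := by
      intro f hf x
      have h := hf 0 (Nat.zero_le _) x
      rw [norm_iteratedFDeriv_zero, Real.norm_eq_abs] at h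
      exact h.trans (min_le_left _ _)
    have hc : ∀ {A : Cn n N} (_ : ∀ i, ClC k (min ε₁ (ε₀ / 2)) (A i)), C0 (Om ρ) ε₁ A := by
      intro A hA x _ i α β
      have h := hA i α β 0 (Nat.zero_le _) x
      rw [norm_iteratedFDeriv_zero] at h
      exact h.trans (min_le_left _ _)
    have hη := h₁ G₁ G₂ hG₁ hG₂ g₁ g₂ s₁ s₂ p₁ p₂ (fun x _ i j => hz (c₁ i j) x)
      (fun x _ i j => hz (c₂ i j) x) A₁ A₂ u₁ u₂ (hc d₁) (hc d₂) hSD
    have hle : min ε₁ (ε₀ / 2) ≤ ε₀ := (min_le_right _ _).trans (half_le_self hε₀.le)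
    refine h₀ G₁ hG₁ g₁ g₂ s₁ s₂ p₁ p₂ (fun i j => Cl_mono169 (c₁ i j) hle) ?_ A₁ A₂ u₁ u₂
      (fun i => ClC_mono (d₁ i) le_rfl hle) (fun i => ClC_mono (d₂ i) le_rfl hle) hSD
    intro i j
    refine Cl_mono169 (Cl_const169 (s₂ i j) (half_pos hε₀).le (c₂ i j) (hη i j)) ?_
    have := min_le_right ε₁ (ε₀ / 2)
    linarith
  · refine ⟨0, 1, one_pos, ?_⟩
    intro G₁ G₂ hG₁ hG₂ g₁ g₂ s₁ s₂ p₁ p₂ c₁ c₂ A₁ A₂ u₁ u₂ d₁ d₂
    exact rigJ_empty hρ hne g₁ g₂ A₁ A₂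

end Vale.Agent.P088.PJ.H760
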