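import Vale.Agent.P088.R2.H551.B.Spec
import Vale.Agent.P088.R2.H647.BUn

/-!
# P088, row UN for pairs: uniformity in the constant metric

`rowUN : RowLC → RowUN`, by compactness of the set of the constant metrics `G` with `CoG B G`.
-/

open MeasureTheory Set Filter Topology
open scoped ContDiff Matrix

noncomputable section

namespace Vale.Agent.P088.PJ.H760

open Vale.Agent.P088.LR Vale.Agent.P088.LR.B Vale.Agent.P088.LR.U Vale.Agent.P088.LR.H158
open Vale.Agent.P088.HY.Bd (NrC CoG)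
open Vale.Agent.P088.HY.H647 (isCompact_CoG NrC_move)
open Vale.Agent.P088.PJ.Bd

variable {n N : ℕ}

/-- Monotonicity of `ClC`. -/
theorem ClC_mono {k l : ℕ} {δ ε : ℝ} {P : MC n N} (h : ClC k δ P) (hl : l ≤ k) (he : δ ≤ ε) :
    ClC l ε P := fun a b m hm x => (h a b m (hm.trans hl) x).trans he

/-- The statement of row UN for a set `S` of constant metrics. -/
def UnS (n N : ℕ) (ρ : V n → ℝ) (k : ℕ) (ε : ℝ) (S : Set (Matrix (Fin n) (Fin n) ℝ)) : Prop :=
  ∀ G ∈ S, ∀ g₁ g₂ : MF n, SmM g₁ → SmM g₂ → (∀ x, (g₁ x).PosDef) → (∀ x, (g₂ x).PosDef) →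
    NrC k ε G g₁ → NrC k ε G g₂ → ∀ A₁ A₂ : Cn n N, SmU A₁ → SmU A₂ → (∀ i, ClC k ε (A₁ i)) →
    (∀ i, ClC k ε (A₂ i)) → RigJ ρ g₁ A₁ g₂ A₂

/-- (UN) from (LC). -/
theorem rowUN : RowLC → RowUN := by
  intro hLC n N hn hN ρ hρ B hB
  have key : ∃ (k : ℕ) (ε : ℝ), 0 < ε ∧
      UnS n N ρ k ε {G : Matrix (Fin n) (Fin n) ℝ | CoG B G} := by
    refine (isCompact_CoG (n := n) B hB).induction_on
      (p := fun S => ∃ (k : ℕ) (ε : ℝ), 0 < ε ∧ UnS n N ρ k ε S)
      ⟨0, 1, one_pos, fun G hG => absurd hG (notMem_empty _)⟩ ?_ ?_ ?_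
    · rintro s t hst ⟨k, ε, he, h⟩
      exact ⟨k, ε, he, fun G hG => h G (hst hG)⟩
    · rintro s t ⟨k, ε, he, h⟩ ⟨k', ε', he', h'⟩
      refine ⟨max k k', min ε ε', lt_min he he',
        fun G hG g₁ g₂ s₁ s₂ p₁ p₂ n₁ n₂ A₁ A₂ u₁ u₂ c₁ c₂ => ?_⟩
      rcases hG with hG | hG
      · exact h G hG g₁ g₂ s₁ s₂ p₁ p₂
          (NrC_move s₁ n₁ (le_max_left _ _) fun i j => by simp)
          (NrC_move s₂ n₂ (le_max_left _ _) fun i j => by simp) A₁ A₂ u₁ u₂
          (fun i => ClC_mono (c₁ i) (le_max_left _ _) (min_le_left _ _))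
          (fun i => ClC_mono (c₂ i) (le_max_left _ _) (min_le_left _ _))
      · exact h' G hG g₁ g₂ s₁ s₂ p₁ p₂
          (NrC_move s₁ n₁ (le_max_right _ _) fun i j => by simp)
          (NrC_move s₂ n₂ (le_max_right _ _) fun i j => by simp) A₁ A₂ u₁ u₂
          (fun i => ClC_mono (c₁ i) (le_max_right _ _) (min_le_right _ _))
          (fun i => ClC_mono (c₂ i) (le_max_right _ _) (min_le_right _ _))
    · intro G hG
      obtain ⟨k, ε, he, h⟩ := hLC n N hn hN ρ hρ G hG.1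
      refine ⟨{G' | ∀ i j, |G' i j - G i j| < ε / 2}, mem_nhdsWithin_of_mem_nhds ?_, k, ε / 2,
        half_pos he, fun G' hG' g₁ g₂ s₁ s₂ p₁ p₂ n₁ n₂ A₁ A₂ u₁ u₂ c₁ c₂ => ?_⟩
      · refine IsOpen.mem_nhds ?_ fun i j => by simpa using half_pos he
        rw [Set.ofPred_forall]
        refine isOpen_iInter_of_finite fun i => ?_
        rw [Set.ofPred_forall]
        exact isOpen_iInter_of_finite fun j =>
          isOpen_lt ((continuous_id.matrix_elem i j).sub continuous_const).abs continuous_const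
      · exact h g₁ g₂ s₁ s₂ p₁ p₂ (NrC_move s₁ n₁ le_rfl fun i j => by
            have := (hG' i j).le
            linarith)
          (NrC_move s₂ n₂ le_rfl fun i j => by
            have := (hG' i j).le
            linarith) A₁ A₂ u₁ u₂
          (fun i => ClC_mono (c₁ i) le_rfl (half_le_self he.le))
          (fun i => ClC_mono (c₂ i) le_rfl (half_le_self he.le))
  exact key

end Vale.Agent.P088.PJ.H760
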